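import Vale.Agent.P159.T1.D.H770.RingDefs
import Mathlib.Analysis.Calculus.BumpFunction.InnerProduct

/-!
Row POL.D of P159 (D.LOW): a smooth angular profile whose derivative is close to the coefficient.
-/

open Filter Topology MeasureTheory Set
open scoped ContDiff

namespace Vale.Agent.P159.T1.D.H831

/-- a smooth probability density on `(α, β)` which is close to the constant one -/
theorem exists_flat {α β δ : ℝ} (h : α < β) (hδ : 0 < δ) :
    ∃ (p : ℝ → ℝ) (s : ℝ), 0 < s ∧ s < β - α ∧ ContDiff ℝ ∞ p ∧ (∀ x, x ≤ α + s → p x = 0) ∧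
      (∀ x, β - s ≤ x → p x = 0) ∧ (∫ x in α..β, p x) = 1 ∧
      ∫ x in α..β, (1 / (β - α) - p x) ^ 2 ≤ δ := by
  set ℓ : ℝ := β - α with hℓ
  have hℓ0 : 0 < ℓ := by rw [hℓ]; linarith
  set s : ℝ := min (ℓ / 8) (δ * ℓ ^ 2 / 8) with hs
  have hs0 : 0 < s := lt_min (by positivity) (by positivity)
  have hs1 : s ≤ ℓ / 8 := min_le_left _ _
  have hs2 : s ≤ δ * ℓ ^ 2 / 8 := min_le_right _ _
  let f : ContDiffBump ((α + β) / 2) := ⟨ℓ / 2 - 2 * s, ℓ / 2 - s, by linarith, by linarith⟩
  have hfc : Continuous (f : ℝ → ℝ) := f.continuous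
  have hint : ∀ a b : ℝ, IntervalIntegrable (f : ℝ → ℝ) volume a b :=
    fun a b => hfc.intervalIntegrable a b
  have h1 : ∀ x, α + 2 * s ≤ x → x ≤ β - 2 * s → f x = 1 := by
    intro x hx1 hx2
    apply f.one_of_mem_closedBall
    rw [Metric.mem_closedBall, Real.dist_eq, abs_le]
    change -(ℓ / 2 - 2 * s) ≤ x - (α + β) / 2 ∧ x - (α + β) / 2 ≤ ℓ / 2 - 2 * s
    rw [hℓ]
    constructor <;> linarith
  have h0 : ∀ x, (x ≤ α + s ∨ β - s ≤ x) → f x = 0 := by
    intro x hx
    apply f.zero_of_le_dist
    rw [Real.dist_eq, le_abs]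
    change ℓ / 2 - s ≤ x - (α + β) / 2 ∨ ℓ / 2 - s ≤ -(x - (α + β) / 2)
    rw [hℓ]
    rcases hx with hx | hx
    · right; linarith
    · left; linarith
  set P : ℝ := ∫ x in α..β, f x with hP
  have hP1 : ℓ - 4 * s ≤ P := by
    have e1 : ∫ x in (α + 2 * s)..(β - 2 * s), f x = ℓ - 4 * s := by
      have : ∫ x in (α + 2 * s)..(β - 2 * s), f x = ∫ _x in (α + 2 * s)..(β - 2 * s), (1 : ℝ) := by
        apply intervalIntegral.integral_congr
        intro x hx
        rw [uIcc_of_le (by rw [hℓ] at hs1; linarith)] at hx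
        exact h1 x hx.1 hx.2
      rw [this, intervalIntegral.integral_const, smul_eq_mul, mul_one, hℓ]
      ring
    rw [← e1, hP]
    apply intervalIntegral.integral_mono_interval (by linarith) (by rw [hℓ] at hs1; linarith)
      (by linarith)
    · exact Eventually.of_forall fun x => f.nonneg
    · exact hint _ _
  have hP2 : ℓ / 2 ≤ P := by linarith
  have hP0 : 0 < P := by linarith
  refine ⟨fun x => f x / P, s, hs0, by linarith, f.contDiff.div_const P, ?_, ?_, ?_, ?_⟩
  · intro x hx; simp only; rw [h0 x (Or.inl hx), zero_div]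
  · intro x hx; simp only; rw [h0 x (Or.inr hx), zero_div]
  · rw [intervalIntegral.integral_div, ← hP, div_self hP0.ne']
  · have hmono : ∫ x in α..β, (1 / ℓ - f x / P) ^ 2
        ≤ ∫ x in α..β, (1 / ℓ ^ 2 - 2 / (ℓ * P) * f x + 1 / P ^ 2 * f x) := by
      apply intervalIntegral.integral_mono_on h.le
      · exact ((continuous_const.sub (hfc.div_const P)).pow 2).intervalIntegrable _ _
      · exact ((continuous_const.sub (continuous_const.mul hfc)).add
          (continuous_const.mul hfc)).intervalIntegrable _ _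
      · intro x _
        have a1 : 0 ≤ f x := f.nonneg
        have a2 : f x ≤ 1 := f.le_one
        have a3 : f x ^ 2 ≤ f x := by nlinarith
        have e : (1 / ℓ - f x / P) ^ 2 = 1 / ℓ ^ 2 - 2 / (ℓ * P) * f x + 1 / P ^ 2 * f x ^ 2 := by
          field_simp
          ring
        rw [e]
        have : 1 / P ^ 2 * f x ^ 2 ≤ 1 / P ^ 2 * f x :=
          mul_le_mul_of_nonneg_left a3 (by positivity)
        linarith
    refine hmono.trans ?_
    have i0 : IntervalIntegrable (fun _ : ℝ => 1 / ℓ ^ 2) volume α β := intervalIntegrable_const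
    have i1 : IntervalIntegrable (fun x => 2 / (ℓ * P) * f x) volume α β := (hint α β).const_mul _
    have i2 : IntervalIntegrable (fun x => 1 / P ^ 2 * f x) volume α β := (hint α β).const_mul _
    rw [intervalIntegral.integral_add (i0.sub i1) i2,
      intervalIntegral.integral_sub i0 i1,
      intervalIntegral.integral_const_mul, intervalIntegral.integral_const_mul,
      intervalIntegral.integral_const, ← hP, smul_eq_mul, ← hℓ]
    have e : ℓ * (1 / ℓ ^ 2) - 2 / (ℓ * P) * P + 1 / P ^ 2 * P = (ℓ - P) / (P * ℓ) := by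
      field_simp
      ring
    rw [e, div_le_iff₀ (by positivity)]
    have b1 : ℓ - P ≤ 4 * s := by linarith
    have b2 : ℓ / 2 * ℓ ≤ P * ℓ := mul_le_mul_of_nonneg_right hP2 hℓ0.le
    have b3 : δ * (ℓ / 2 * ℓ) ≤ δ * (P * ℓ) := mul_le_mul_of_nonneg_left b2 hδ.le
    nlinarith



theorem ang_pos {q : ℕ} (hq : 1 ≤ q) : 0 < ang q := by
  unfold ang
  rw [Real.arctan_pos]
  have : (0 : ℝ) < q := by exact_mod_cast hq
  positivity

theorem ang_lt {q : ℕ} : ang q < Real.pi / 2 := Real.arctan_lt_pi_div_two _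

/-- **POL.D** -/
theorem stmtPolD : StmtPolD := by
  intro Y V q hY hV hq δ hδ
  have hd0 := ang_pos hq
  have hd1 : ang q < Real.pi / 2 := ang_lt
  have hpi := Real.pi_pos
  set d : ℝ := ang q with hd
  set k : ℝ := V / Y with hk
  have hk0 : 0 < k := div_pos hV hY
  set β : ℝ := -Real.pi + d with hβ
  obtain ⟨p1, s1, hs1, hs1', hp1, hp1a, hp1b, hp1i, hp1e⟩ :=
    exists_flat (α := -Real.pi) (β := β) (δ := δ / (2 * k ^ 2)) (by rw [hβ]; linarith) (by positivity)
  obtain ⟨p2, s2, hs2, hs2', hp2, hp2a, hp2b, hp2i, hp2e⟩ :=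
    exists_flat (α := β) (β := Real.pi) (δ := δ / (2 * k ^ 2)) (by rw [hβ]; linarith) (by positivity)
  have e1 : β - -Real.pi = d := by rw [hβ]; ring
  have e2 : Real.pi - β = 2 * Real.pi - d := by rw [hβ]; ring
  rw [e1] at hs1' hp1e
  rw [e2] at hs2' hp2e
  have hc1 : Continuous p1 := hp1.continuous
  have hc2 : Continuous p2 := hp2.continuous
  have hc : Continuous fun t => p1 t - p2 t := hc1.sub hc2
  let u : ℝ → ℝ := fun θ => k * ∫ t in (-Real.pi)..θ, (p1 t - p2 t)
  have hu : ∀ θ, HasDerivAt u (k * (p1 θ - p2 θ)) θ := fun θ =>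
    (hc.integral_hasStrictDerivAt (-Real.pi) θ).hasDerivAt.const_mul k
  have hdu : deriv u = fun θ => k * (p1 θ - p2 θ) := funext fun θ => (hu θ).deriv
  have hC : ContDiff ℝ ∞ u := by
    rw [contDiff_infty_iff_deriv]
    refine ⟨fun θ => (hu θ).differentiableAt, ?_⟩
    rw [hdu]
    exact contDiff_const.mul (hp1.sub hp2)
  have hi1 : ∀ a b : ℝ, IntervalIntegrable p1 volume a b := fun a b => hc1.intervalIntegrable a b
  have hi2 : ∀ a b : ℝ, IntervalIntegrable p2 volume a b := fun a b => hc2.intervalIntegrable a b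
  have htot : ∫ t in (-Real.pi)..Real.pi, (p1 t - p2 t) = 0 := by
    rw [intervalIntegral.integral_sub (hi1 _ _) (hi2 _ _),
      ← intervalIntegral.integral_add_adjacent_intervals (hi1 (-Real.pi) β) (hi1 β Real.pi),
      ← intervalIntegral.integral_add_adjacent_intervals (hi2 (-Real.pi) β) (hi2 β Real.pi),
      hp1i, hp2i]
    have z1 : ∫ t in β..Real.pi, p1 t = 0 := by
      have : ∫ t in β..Real.pi, p1 t = ∫ _t in β..Real.pi, (0 : ℝ) := by
        apply intervalIntegral.integral_congr
        intro t ht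
        rw [uIcc_of_le (by rw [hβ]; linarith)] at ht
        exact hp1b t (by linarith [ht.1])
      rw [this]; simp
    have z2 : ∫ t in (-Real.pi)..β, p2 t = 0 := by
      have : ∫ t in (-Real.pi)..β, p2 t = ∫ _t in (-Real.pi)..β, (0 : ℝ) := by
        apply intervalIntegral.integral_congr
        intro t ht
        rw [uIcc_of_le (by rw [hβ]; linarith)] at ht
        exact hp2a t (by linarith [ht.2])
      rw [this]; simp
    rw [z1, z2]; ring
  have hC2 : ContDiff ℝ 2 u := by
    have := contDiff_infty.1 hC 2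
    exact_mod_cast this
  refine ⟨u, hC2, ?_, ?_⟩
  · have hsub : Function.support u ⊆ Icc (-Real.pi + s1) (Real.pi - s2) := by
      intro θ hθ
      by_contra hcon
      apply hθ
      rw [mem_Icc, not_and_or, not_le, not_le] at hcon
      rcases hcon with hcon | hcon
      · have : ∫ t in (-Real.pi)..θ, (p1 t - p2 t) = ∫ _t in (-Real.pi)..θ, (0 : ℝ) := by
          apply intervalIntegral.integral_congr
          intro t ht
          have ht2 : t ≤ -Real.pi + s1 := by
            rcases le_total (-Real.pi) θ with h | h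
            · rw [uIcc_of_le h] at ht; linarith [ht.2]
            · rw [uIcc_of_ge h] at ht; linarith [ht.2]
          simp only
          rw [hp1a t ht2, hp2a t (by rw [hβ]; linarith), sub_zero]
        change k * ∫ t in (-Real.pi)..θ, (p1 t - p2 t) = 0
        rw [this]; simp
      · have h1 := intervalIntegral.integral_add_adjacent_intervals
          (hc.intervalIntegrable (μ := volume) (-Real.pi) θ) (hc.intervalIntegrable θ Real.pi)
        have h2 : ∫ t in θ..Real.pi, (p1 t - p2 t) = ∫ _t in θ..Real.pi, (0 : ℝ) := by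
          apply intervalIntegral.integral_congr
          intro t ht
          have ht2 : Real.pi - s2 ≤ t := by
            rcases le_total θ Real.pi with h | h
            · rw [uIcc_of_le h] at ht; linarith [ht.1]
            · rw [uIcc_of_ge h] at ht; linarith [ht.1]
          simp only
          rw [hp1b t (by rw [hβ]; linarith), hp2b t ht2, sub_zero]
        change k * ∫ t in (-Real.pi)..θ, (p1 t - p2 t) = 0
        rw [htot, h2] at h1
        simp only [intervalIntegral.integral_zero, add_zero] at h1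
        rw [h1, mul_zero]
    refine (closure_minimal hsub isClosed_Icc).trans ?_
    intro θ hθ
    exact ⟨by linarith [hθ.1], by linarith [hθ.2]⟩
  · have hle1 : -Real.pi ≤ β := by rw [hβ]; linarith
    have hle2 : β ≤ Real.pi := by rw [hβ]; linarith
    have g1 : EqOn (fun θ => (cth Y V q θ - deriv u θ) ^ 2)
        (fun θ => k ^ 2 * (1 / d - p1 θ) ^ 2) (uIoo (-Real.pi) β) := by
      intro θ hθ
      rw [uIoo_of_le hle1] at hθ
      have hlt : θ < -Real.pi + ang q := hθ.2
      simp only [cth, if_pos hlt, hdu]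
      rw [hp2a θ (by linarith [hθ.2]), hk, ← hd]
      field_simp
      ring
    have g2 : EqOn (fun θ => (cth Y V q θ - deriv u θ) ^ 2)
        (fun θ => k ^ 2 * (1 / (2 * Real.pi - d) - p2 θ) ^ 2) (uIoo β Real.pi) := by
      intro θ hθ
      rw [uIoo_of_le hle2] at hθ
      have hlt : ¬ θ < -Real.pi + ang q := not_lt.2 hθ.1.le
      have hne : (2 * Real.pi - d) ≠ 0 := by linarith
      simp only [cth, if_neg hlt, hdu]
      rw [hp1b θ (by linarith [hθ.1]), hk, ← hd]
      field_simp
      ring
    have c1 : IntervalIntegrable (fun θ => k ^ 2 * (1 / d - p1 θ) ^ 2) volume (-Real.pi) β :=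
      (continuous_const.mul ((continuous_const.sub hc1).pow 2)).intervalIntegrable _ _
    have c2 : IntervalIntegrable (fun θ => k ^ 2 * (1 / (2 * Real.pi - d) - p2 θ) ^ 2)
        volume β Real.pi :=
      (continuous_const.mul ((continuous_const.sub hc2).pow 2)).intervalIntegrable _ _
    rw [← intervalIntegral.integral_add_adjacent_intervals
      ((intervalIntegrable_congr_uIoo g1).2 c1) ((intervalIntegrable_congr_uIoo g2).2 c2),
      intervalIntegral.integral_congr_uIoo g1, intervalIntegral.integral_congr_uIoo g2,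
      intervalIntegral.integral_const_mul, intervalIntegral.integral_const_mul]
    have f1 : k ^ 2 * ∫ θ in (-Real.pi)..β, (1 / d - p1 θ) ^ 2 ≤ k ^ 2 * (δ / (2 * k ^ 2)) :=
      mul_le_mul_of_nonneg_left hp1e (by positivity)
    have f2 : k ^ 2 * ∫ θ in β..Real.pi, (1 / (2 * Real.pi - d) - p2 θ) ^ 2
        ≤ k ^ 2 * (δ / (2 * k ^ 2)) :=
      mul_le_mul_of_nonneg_left hp2e (by positivity)
    have f3 : k ^ 2 * (δ / (2 * k ^ 2)) = δ / 2 := by
      field_simp
    linarith

end Vale.Agent.P159.T1.D.H831
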