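import Vale.Agent.P159.T1.D.H770.RingDefs
import Mathlib.Analysis.SpecialFunctions.SmoothTransition

/-!
Row POL.E of P159 (D.LOW): decomposition of the angular profile into five pieces.
-/

open Filter Topology MeasureTheory Set
open scoped ContDiff

namespace Vale.Agent.P159.T1.D.H831

/-- smooth step from `c` to `c + π / 4` -/
noncomputable def stp (c θ : ℝ) : ℝ := Real.smoothTransition ((θ - c) * (4 / Real.pi))

theorem stp_zero {c θ : ℝ} (h : θ ≤ c) : stp c θ = 0 := by
  unfold stp
  apply Real.smoothTransition.zero_of_nonpos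
  have : 0 < 4 / Real.pi := by positivity
  nlinarith

theorem stp_one {c θ : ℝ} (h : c + Real.pi / 4 ≤ θ) : stp c θ = 1 := by
  unfold stp
  apply Real.smoothTransition.one_of_one_le
  have h1 : 0 < 4 / Real.pi := by positivity
  have h2 : Real.pi / 4 * (4 / Real.pi) = 1 := by field_simp
  have h3 : Real.pi / 4 ≤ θ - c := by linarith
  calc (1 : ℝ) = Real.pi / 4 * (4 / Real.pi) := h2.symm
    _ ≤ (θ - c) * (4 / Real.pi) := mul_le_mul_of_nonneg_right h3 h1.le

theorem contDiff_stp (c : ℝ) : ContDiff ℝ 2 (stp c) := by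
  unfold stp
  exact Real.smoothTransition.contDiff.comp (by fun_prop)

/-- compact support inside an open interval -/
theorem exists_margin {u : ℝ → ℝ} (hu : tsupport u ⊆ Ioo (-Real.pi) Real.pi) :
    ∃ α : ℝ, 0 < α ∧ α ≤ Real.pi / 8 ∧ ∀ θ, (θ < -Real.pi + α ∨ Real.pi - α < θ) → u θ = 0 := by
  have hpi := Real.pi_pos
  have hK : IsCompact (tsupport u) :=
    isCompact_Icc.of_isClosed_subset (isClosed_tsupport u) (hu.trans Ioo_subset_Icc_self)
  have hz : ∀ θ, θ ∉ tsupport u → u θ = 0 := fun θ h => image_eq_zero_of_notMem_tsupport h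
  rcases (tsupport u).eq_empty_or_nonempty with he | hne
  · refine ⟨Real.pi / 8, by positivity, le_rfl, fun θ _ => hz θ ?_⟩
    rw [he]; exact notMem_empty θ
  · obtain ⟨m, hm⟩ := hK.exists_isLeast hne
    obtain ⟨M, hM⟩ := hK.exists_isGreatest hne
    have h1 := hu hm.1
    have h2 := hu hM.1
    refine ⟨min (Real.pi / 8) (min (m + Real.pi) (Real.pi - M)), ?_, min_le_left _ _, ?_⟩
    · refine lt_min (by positivity) (lt_min ?_ ?_)
      · linarith [h1.1]
      · linarith [h2.2]
    · intro θ hθ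
      apply hz
      intro hmem
      have a1 := hm.2 hmem
      have a2 := hM.2 hmem
      have b1 : min (Real.pi / 8) (min (m + Real.pi) (Real.pi - M)) ≤ m + Real.pi :=
        (min_le_right _ _).trans (min_le_left _ _)
      have b2 : min (Real.pi / 8) (min (m + Real.pi) (Real.pi - M)) ≤ Real.pi - M :=
        (min_le_right _ _).trans (min_le_right _ _)
      rcases hθ with h | h <;> linarith

theorem tsup_le {w : ℝ → ℝ} {a b : ℝ} (h : ∀ θ, (θ < a ∨ b < θ) → w θ = 0) :
    tsupport w ⊆ Icc a b := by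
  refine closure_minimal ?_ isClosed_Icc
  intro θ hθ
  by_contra hcon
  rw [mem_Icc, not_and_or, not_le, not_le] at hcon
  exact hθ (h θ hcon)

/-- **POL.E** -/
theorem stmtPolE : StmtPolE := by
  intro u hu hsu
  have hpi := Real.pi_pos
  obtain ⟨α, hα, hα8, hz⟩ := exists_margin hsu
  let χ : Fin 5 → ℝ → ℝ := ![stp (5 * Real.pi / 8),
    fun θ => stp (Real.pi / 8) θ - stp (5 * Real.pi / 8) θ,
    fun θ => stp (-(3 * Real.pi / 8)) θ - stp (Real.pi / 8) θ,
    fun θ => stp (-(7 * Real.pi / 8)) θ - stp (-(3 * Real.pi / 8)) θ,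
    fun θ => 1 - stp (-(7 * Real.pi / 8)) θ]
  have hχ : ∀ i, ContDiff ℝ 2 (χ i) := by
    intro i
    fin_cases i
    · exact contDiff_stp _
    · exact (contDiff_stp _).sub (contDiff_stp _)
    · exact (contDiff_stp _).sub (contDiff_stp _)
    · exact (contDiff_stp _).sub (contDiff_stp _)
    · exact contDiff_const.sub (contDiff_stp _)
  refine ⟨fun i θ => χ i θ * u θ, α, hα, fun i => (hχ i).mul hu, ?_, ?_, ?_, ?_, ?_, ?_⟩
  · intro θ
    rw [← Finset.sum_mul, Fin.sum_univ_five]
    change u θ = (stp (5 * Real.pi / 8) θ + (stp (Real.pi / 8) θ - stp (5 * Real.pi / 8) θ) +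
      (stp (-(3 * Real.pi / 8)) θ - stp (Real.pi / 8) θ) +
      (stp (-(7 * Real.pi / 8)) θ - stp (-(3 * Real.pi / 8)) θ) +
      (1 - stp (-(7 * Real.pi / 8)) θ)) * u θ
    ring
  · apply tsup_le
    intro θ hθ
    change stp (5 * Real.pi / 8) θ * u θ = 0
    rcases hθ with h | h
    · rw [stp_zero (by linarith), zero_mul]
    · rw [hz θ (Or.inr h), mul_zero]
  · apply tsup_le
    intro θ hθ
    change (stp (Real.pi / 8) θ - stp (5 * Real.pi / 8) θ) * u θ = 0
    rcases hθ with h | h
    · rw [stp_zero (c := Real.pi / 8) (by linarith), stp_zero (c := 5 * Real.pi / 8) (by linarith),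
        sub_zero, zero_mul]
    · rw [hz θ (Or.inr h), mul_zero]
  · apply tsup_le
    intro θ hθ
    change (stp (-(3 * Real.pi / 8)) θ - stp (Real.pi / 8) θ) * u θ = 0
    rcases hθ with h | h
    · rw [stp_zero (c := Real.pi / 8) (by linarith),
        stp_zero (c := -(3 * Real.pi / 8)) (by linarith), sub_zero, zero_mul]
    · rw [stp_one (c := Real.pi / 8) (by linarith),
        stp_one (c := -(3 * Real.pi / 8)) (by linarith), sub_self, zero_mul]
  · apply tsup_le
    intro θ hθ
    change (stp (-(7 * Real.pi / 8)) θ - stp (-(3 * Real.pi / 8)) θ) * u θ = 0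
    rcases hθ with h | h
    · rw [hz θ (Or.inl h), mul_zero]
    · rw [stp_one (c := -(7 * Real.pi / 8)) (by linarith),
        stp_one (c := -(3 * Real.pi / 8)) (by linarith), sub_self, zero_mul]
  · apply tsup_le
    intro θ hθ
    change (1 - stp (-(7 * Real.pi / 8)) θ) * u θ = 0
    rcases hθ with h | h
    · rw [hz θ (Or.inl h), mul_zero]
    · rw [stp_one (c := -(7 * Real.pi / 8)) (by linarith), sub_self, zero_mul]

end Vale.Agent.P159.T1.D.H831
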